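import Vale.Agent.P246.R2.H31.TopChi
import Vale.Agent.P246.R2.H429.Defs5

/-! # P246, row CLS: the homotopy classification -/

set_option linter.all false

namespace Vale.Agent.P246.R2.H109.CLS

open Topology Metric Set Vale.Agent.P246 Vale.Agent.P246.T Vale.Agent.P246.H429
  Vale.Agent.P246.R2.H31T

/-- a quasi-isomorphism from the Fox complex gives a homotopy equivalence with a presentation
complex -/
theorem realise' (hWC : SpecWC) (hA2 : SpecA2)
    (hYD : SpecYD) (hYC : SpecYC) (hCY : SpecCY') (hYP : SpecYP) (hYH : SpecYH)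
    (hEW : SpecEW) (hRV : SpecRV) (hRH : SpecRH) (hDN : SpecDown) (hCV : SpecConv)
    (hWh : SpecWh) {G X E : Type} [Group G] [TopologicalSpace X] [T2Space X]
    (hB : Built ∅ (univ : Set X)) [TopologicalSpace E]
    [hsc : SimplyConnectedSpace E] [MulAction G E] [ContinuousConstSMul G E] (p : C(E, X))
    (hp : IsQuotientCoveringMap p G) (Pr : FinPresentation G)
    (ψ0 : ZG G →ₗ[ZG G] SC G 0 E) (ψ1 : (Fin Pr.gens → ZG G) →ₗ[ZG G] SC G 1 E)
    (ψ2 : (Fin Pr.rels → ZG G) →ₗ[ZG G] SC G 2 E) (hψ : FoxQI Pr univ ψ0 ψ1 ψ2) :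
    ∃ c : PresCx Pr (pW G Pr.gens Pr.rels p), IsQuotientCoveringMap (pW G Pr.gens Pr.rels p) G ∧
      c.Good ∧ Nonempty (ContinuousMap.HomotopyEquiv X c.Y) := by
  obtain ⟨e⟩ : Nonempty E := inferInstance
  have hα : ∀ i, Nonempty (Path e (Pr.x i • e)) := fun i => PathConnectedSpace.joined _ _
  let α : ∀ i, Path e (Pr.x i • e) := fun i => (hα i).some
  obtain ⟨W⟩ := hWC
  obtain ⟨c, hc⟩ := hA2 G E Pr ψ0 ψ1 ψ2 hψ e (α)
  have hc0 := (hc c fun j => ⟨0, by simp⟩).1
  have hrel : ∀ j, wval Pr.x (Pr.r j).toWord = 1 := by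
    intro j
    have h1 : Pr.r j ∈ (FreeGroup.lift Pr.x).ker := by
      rw [Pr.ker_eq]; exact Subgroup.subset_normalClosure ⟨j, rfl⟩
    have h2 : ∀ w : List (Fin Pr.gens × Bool), wval Pr.x w = FreeGroup.lift Pr.x (FreeGroup.mk w) := by
      intro w
      induction w with
      | nil => rw [wval]; exact (map_one (FreeGroup.lift Pr.x)).symm
      | cons l w ih =>
        rw [wval, ih, lval]
        simp only [FreeGroup.lift_mk, List.map_cons, List.prod_cons]
        cases l.2 <;> rfl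
    rw [h2, FreeGroup.mk_toWord]
    exact h1
  have hδ : ∀ j, ∃ δ : C(Dk 2, E), BdryWord Pr.x α (Pr.r j).toWord δ ∧ ∃ t : Ch 3 E,
      push δ 2 zeta2 + ksx 2 e + W.cor G E Pr.gens Pr.x e α (Pr.r j).toWord = c j + bd 2 t :=
    fun j => hYD W G E _ Pr.x e α _ (hrel j) (c j) (hc0 j)
  choose δ hδ1 hδ2 using hδ
  obtain ⟨y, hy, hye, hya, hyb⟩ := hYC G X E p hp Pr e α δ hδ1
  obtain ⟨hpW, hscW, ⟨hX⟩, f, hf, hfg, h, hfh, hhf⟩ := hEW G X E p hp Pr.gens Pr.rels
  have := hscW hsc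
  have hbuilt := hCY G (X × WW Pr.gens Pr.rels) (EW G E Pr.gens Pr.rels) (pW G Pr.gens Pr.rels p)
    hpW Pr y hy
  have hscY := hYP G (X × WW Pr.gens Pr.rels) (EW G E Pr.gens Pr.rels) (pW G Pr.gens Pr.rels p)
    hpW Pr y hy
  have hQ := hYH W G (X × WW Pr.gens Pr.rels) (EW G E Pr.gens Pr.rels) (pW G Pr.gens Pr.rels p)
    hpW Pr y hy
  have hQE := (hc (fun j => push f 2 (y.zface W j)) (fun j => by
    obtain ⟨t, ht⟩ := hδ2 j
    refine ⟨t, ?_⟩
    rw [← ht, PresCx.zface, map_add, map_add]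
    congr 1
    · congr 1
      · rw [← push_comp]
        congr 1
        congr 1
        ext z
        rw [ContinuousMap.comp_apply, hf, hyb]
      · rw [ksx, push_single, ksx]
        congr 1
        ext z
        simp [hf, hye]
    · refine W.nat G _ E f hfg _ _ _ _ _ _ ?_ ?_ _
      · rw [hf, hye]
      · intro i t
        rw [hf, hya])).2
  have hHZ : ∀ k, HZero univ (pW G Pr.gens Pr.rels p ⁻¹' y.Y) k := by
    refine hRV G E (EW G E Pr.gens Pr.rels) f hfg ⟨h, hfh, hhf⟩ Pr _ _ _ _ _ _ _ hQ hQE ?_ ?_ ?_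
    · intro v
      rw [phi0, phi0, LinearMap.toSpanSingleton_apply, LinearMap.toSpanSingleton_apply,
        SC.un_smul, SC.un_smul, SC.un_mk, SC.un_mk, Finsupp.sum, Finsupp.sum, map_sum]
      refine Finset.sum_congr rfl fun g _ => ?_
      rw [map_smul, ksx, ksx, push_single, push_single, push_single]
      congr 2
      ext z
      simp only [ContinuousMap.comp_apply, ContinuousMap.const_apply]
      change g • e = f (g • y.e)
      rw [hfg, hf, hye]
    · intro v
      rw [phi1, phi1, push_lmap f hfg]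
      congr 3
      funext i
      rw [SC.un_mk, psx, psx, push_single]
      congr 2
      ext z
      simp only [ContinuousMap.comp_apply]
      change α i _ = f (y.a i _)
      rw [hf, hya]
    · intro v
      rw [push_lmap f hfg]
      rfl
  have hL := hRH (EW G E Pr.gens Pr.rels) (pW G Pr.gens Pr.rels p ⁻¹' y.Y) hHZ
  have hL2 : ∀ n, Lft y.Y n := fun n => hCV _ _ n (hDN G _ _ (pW G Pr.gens Pr.rels p) hpW y.Y n (hL n))
  refine ⟨y, hpW, hy, ?_⟩
  exact hWh X (X × WW Pr.gens Pr.rels) y.Y hB hbuilt.1 hL2 ⟨hX⟩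

/-- the presentation complex of a finite D(2) complex -/
theorem exists_presCx {G : Type} [Group G] (Pr : FinPresentation G) (X : Type)
    [TopologicalSpace X] [T2Space X] [CWComplex (univ : Set X)]
    [CWComplex.Finite (univ : Set X)] [ConnectedSpace X] (x : X)
    (hx : Nonempty (FundamentalGroup X x ≃* G)) (hD : D2Condition X)
    (hG : ∀ C : Cx (ZG G), IsD2Complex C → HasEuler C (cellChi X) → C.Equiv (foxComplex Pr)) :
    ∃ (E : Type) (_ : TopologicalSpace E) (_ : MulAction G E) (_ : ContinuousConstSMul G E)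
      (p : C(E, X)) (c : PresCx Pr (pW G Pr.gens Pr.rels p)),
      IsQuotientCoveringMap (pW G Pr.gens Pr.rels p) G ∧ c.Good ∧
        Nonempty (ContinuousMap.HomotopyEquiv X c.Y) := by
  obtain ⟨hB, hcpt, hlpc⟩ := CWB.main X
  have hpc : PathConnectedSpace X := PathConnectedSpace.of_locallyPathConnectedSpace
  obtain ⟨E, tE, mE, cE, p, hsc, hp, hH, hH3⟩ := AC.main G X x hx hD
  obtain ⟨P, hP, hν⟩ := modelN (p := p) MS.main CL.main fund hp (builtN_univ (X := X))
  obtain ⟨N, hN⟩ := exists_bound (X := X)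
  obtain ⟨C, hC, hE, hreal⟩ := algData p hp hH hH3 hP hν N hN
  have hPr := hG C hC (by rw [cellChi_eq X N hN]; exact hE)
  obtain ⟨ψ0, ψ1, ψ2, hψ⟩ := hreal Pr hPr
  obtain ⟨c, h1, h2, h3⟩ := realise' WC.main A2.main (YD.main fund) YC.main CY.main YP.main
    (YH.main MS.main CL.main fund) EWb.main RV.main relHur DN.main CV.main WH.main hB p hp Pr
    ψ0 ψ1 ψ2 hψ
  exact ⟨E, tE, mE, cE, p, c, h1, h2, h3⟩

/-- ROW CLS -/
theorem cls : SpecHom → SpecCls := by
  intro hHom G _ e Q hG X _ _ _ _ _ x Y _ _ _ _ _ y hx hy hDX hDY hχ he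
  obtain ⟨E, _, _, _, p, c, hp, hc, ⟨f⟩⟩ := exists_presCx (Q (cellChi X)) X x hx hDX
    fun C h1 h2 => hG C h1 _ h2 he
  obtain ⟨E', _, _, _, p', c', hp', hc', ⟨f'⟩⟩ := exists_presCx (Q (cellChi X)) Y y hy hDY
    fun C h1 h2 => by
      rw [hχ]
      exact hG C h1 _ h2 (by rw [← hχ]; exact he)
  obtain ⟨h⟩ := hHom G _ _ _ _ (pW G _ _ p) (pW G _ _ p') hp hp' (Q (cellChi X)) c c' hc hc'
  exact ⟨f.trans (h.toHomotopyEquiv.trans f'.symm)⟩

end Vale.Agent.P246.R2.H109.CLS
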