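import Vale.Agent.P246.R2.H31.TopChi
import Vale.Agent.P246.R2.H429.Defs4

/-! # P246, row TW6: the assembly for the wedges with two-spheres -/

namespace Vale.Agent.P246.R2.H109

open Topology Metric Set Vale.Agent.P246 Vale.Agent.P246.T Vale.Agent.P246.H429
  Vale.Agent.P246.R2.H31T

section

variable {X W : Type} [TopologicalSpace X] [TopologicalSpace W]

theorem attach_map (j : C(X, W)) (hj : Function.Injective j) {n : ℕ} {A B : Set X}
    {Φ : C(Dk n, X)} (h : Attach n A B Φ) : Attach n (j '' A) (j '' B) (j.comp Φ) where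
  bdry x hx := mem_image_of_mem j (h.bdry x hx)
  int x hx hc := by
    obtain ⟨y, hy, e⟩ := hc
    have e' : y = Φ x := hj e
    exact h.int x hx (e' ▸ hy)
  inj x y hx hy e := h.inj x y hx hy (hj e)
  eq := by
    rw [h.eq, image_union, ← range_comp]
    rfl

theorem built_map (j : C(X, W)) (hj : Function.Injective j) {B : Set X} (h : Built ∅ B) :
    Built ∅ (j '' B) := by
  induction h with
  | base => rw [image_empty]; exact Built.base
  | cell n Φ _ h ih => exact Built.cell n _ ih (attach_map j hj h)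

theorem built_sph {C B : Set W} {t : ℕ} (h : Sph C B t) (hC : Built ∅ C) : Built ∅ B := by
  induction h with
  | base => exact hC
  | cell Φ a _ _ _ h ih => exact Built.cell 2 Φ ih h

end

/-- the inclusion of `X` in the wedge -/
def incl (X : Type) [TopologicalSpace X] (y : X) (s : S2) (t : ℕ) : C(X, WedgeS2 X y s t) :=
  ⟨fun x => ⟨(x, fun _ => s), Or.inl fun _ => rfl⟩, by fun_prop⟩

theorem incl_injective (X : Type) [TopologicalSpace X] (y : X) (s : S2) (t : ℕ) :
    Function.Injective (incl X y s t) := by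
  intro a b h
  exact congrArg (fun q : WedgeS2 X y s t => q.1.1) h

theorem incl_image (X : Type) [TopologicalSpace X] (y : X) (s : S2) (t : ℕ) :
    incl X y s t '' univ = inX X y s t := by
  ext q
  constructor
  · rintro ⟨x, -, rfl⟩
    exact fun _ => rfl
  · intro hq
    refine ⟨q.1.1, trivial, Subtype.ext (Prod.ext rfl ?_)⟩
    funext i
    exact (hq i).symm

theorem isClosed_inX (X : Type) [TopologicalSpace X] (y : X) (s : S2) (t : ℕ) :
    IsClosed (inX X y s t) := by
  have e : inX X y s t = ⋂ i, {q : WedgeS2 X y s t | q.1.2 i = s} := by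
    ext q
    simp [inX]
  rw [e]
  refine isClosed_iInter fun i => ?_
  exact isClosed_eq (by fun_prop) continuous_const

theorem tw6 : SpecSph → SpecCovW → SpecSCW → SpecChW → SpecAlgW → SpecTopWedge := by
  intro hSph hCov hSC hCh hAlg G _ e hG X _ _ _ _ _ x y s t he hD hχ
  obtain ⟨hB, hcpt, hlpc⟩ := CWB.main X
  have hpc : PathConnectedSpace X := PathConnectedSpace.of_locallyPathConnectedSpace
  obtain ⟨E, _, _, _, p, hsc, hp, hH, hH3⟩ := AC.main G X x he hD
  obtain ⟨P, hP, hν⟩ := modelN (p := p) MS.main CL.main fund hp (builtN_univ (X := X))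
  obtain ⟨N, hN⟩ := exists_bound (X := X)
  obtain ⟨F, _, _, _, q, ι, hq, hι, hr, hιg, -⟩ := hCov G X E p hp y s t
  have hC : IsClosed (inX X y s t) := isClosed_inX X y s t
  have hS : Sph (inX X y s t) univ t := hSph X y s t
  have hscC : SimplyConnectedSpace (q ⁻¹' inX X y s t : Set F) :=
    ((hι.toHomeomorph.trans (Homeomorph.setCongr hr)).toHomotopyEquiv.simplyConnectedSpace_iff).1
      hsc
  have hF : SimplyConnectedSpace F := hSC G _ F q hq _ t hC hS hscC
  obtain ⟨D, hD2, hE, hreal⟩ := hAlg hCh G _ E F q hq _ t ι hC hS hι hr hιg hH hH3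
    (fun n => A1f.free hp n) P _ N hP hν hN
  obtain ⟨Pr, hPr⟩ := hG D hD2 _ hE (by rw [← cellChi_eq X N hN]; exact hχ)
  obtain ⟨ψ0, ψ1, ψ2, hψ⟩ := hreal Pr hPr
  have hBW : Built ∅ (univ : Set (WedgeS2 X y s t)) := by
    refine built_sph hS ?_
    rw [← incl_image]
    exact built_map _ (incl_injective X y s t) hB
  exact realise WC.main A2.main (YD.main fund) YC.main CY.main YP.main
    (YH.main MS.main CL.main fund) EWb.main RV.main relHur DN.main CV.main WH.main hBW q hq Pr
    ψ0 ψ1 ψ2 hψ

end Vale.Agent.P246.R2.H109
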